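import Vale.Agent.Lib.P333.Final

/-!
The per-cycle inequality for the shortest superstring problem: for a substring-free family of
nonempty strings and any stable cycle cover (the property of the greedy cycle cover), the overlap of
every Hamiltonian path is bounded by a sum over the cycles of the cover.
-/

namespace Vale.Agent.Results.P333.A_per_cycle

open _root_.P333

/-- For every substring-free family of nonempty strings: stable cycle covers exist, and for every
stable cycle cover `σ` and every Hamiltonian path `T` the overlap of `T` is at most the sum over the
cycles `C` of `σ` of `ov(C) - a_C + 2 p_C + min((a_C - p_C)^+, (k_C - 1) (2 p_C - a_C)^+)`, where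
`p_C` is the period of the cycle, `a_C` its smallest arc overlap and `k_C` its number of strings.
So the minimum term drops on the instances all of whose cycles have one string, or `2 p_C ≤ a_C`, or
`a_C ≤ p_C`. -/
theorem result {α ι : Type*} [Fintype ι] (F : ι → List α) (hF : SubstringFree F) :
    (∃ σ : Equiv.Perm ι, Stable F σ) ∧
    ∀ σ : Equiv.Perm ι, Stable F σ → ∀ T : List ι, T.Nodup → (∀ i, i ∈ T) →
      (pathOv F T ≤ ∑ C ∈ orbits σ, budget F σ C) ∧
      ((∀ C ∈ orbits σ, C.card = 1 ∨ 2 * period F σ C ≤ minArc F σ C ∨
          minArc F σ C ≤ period F σ C) →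
        pathOv F T ≤ ∑ C ∈ orbits σ, ((arcSum F σ C - minArc F σ C) + 2 * period F σ C)) := by
  refine ⟨exists_stable F, fun σ hS T hnd hall => ?_⟩
  have h := per_cycle hF hS T hnd hall
  refine ⟨h, fun hC => h.trans (le_of_eq (Finset.sum_congr rfl fun C hCm => ?_))⟩
  have hmin : min (minArc F σ C - period F σ C)
      ((C.card - 1) * (2 * period F σ C - minArc F σ C)) = 0 := by
    rcases hC C hCm with h1 | h1 | h1
    · simp [h1]
    · have : 2 * period F σ C - minArc F σ C = 0 := by omega
      simp [this]
    · have : minArc F σ C - period F σ C = 0 := by omega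
      simp [this]
  unfold budget
  rw [hmin, add_zero]

end Vale.Agent.Results.P333.A_per_cycle
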